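import Vale.Agent.Lib.P227.Block

namespace Vale.Agent.Results.P227.BlockScaling

open MeasureTheory Vale.Agent.Lib.P227

/-- The logarithmic Brunn-Minkowski inequality for the pair `K`, `L = T K` in `ℝ^n`, where
the coordinates are split into blocks by `c : Fin n → Fin m`, the origin-symmetric convex
body `K` is invariant under the sign change of every block of coordinates, and `T` is the
diagonal map multiplying the coordinates of block `j` by `a j > 0`. -/
theorem result (n m : ℕ) (c : Fin n → Fin m)
    (K : Set (EuclideanSpace ℝ (Fin n))) (hK : IsSymmConvexBody K)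
    (hsym : ∀ ε : Fin m → ℝ, (∀ j, ε j = 1 ∨ ε j = -1) → ∀ x ∈ K,
      (WithLp.toLp 2 (fun i => ε (c i) * x i) : EuclideanSpace ℝ (Fin n)) ∈ K)
    (a : Fin m → ℝ) (ha : ∀ j, 0 < a j)
    (L : Set (EuclideanSpace ℝ (Fin n)))
    (hL : L = (fun x : EuclideanSpace ℝ (Fin n) =>
      (WithLp.toLp 2 (fun i => a (c i) * x i) : EuclideanSpace ℝ (Fin n))) '' K)
    (t : ℝ) (ht0 : 0 ≤ t) (ht1 : t ≤ 1) :
    volume K ^ (1 - t) * volume L ^ t ≤ volume (logSum K L t) := by
  subst hL
  exact logBM_block c hK hsym a ha ht0 ht1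

end Vale.Agent.Results.P227.BlockScaling
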