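import Vale.Agent.Lib.P227.Product

namespace Vale.Agent.Results.P227.ProductClosure

open MeasureTheory Vale.Agent.Lib.P227

/-- Closure of the logarithmic Brunn-Minkowski inequality under Cartesian products:
if it holds (at the parameter `t`) for the pair `K₁, L₁` in `ℝ^m` and for the pair
`K₂, L₂` in `ℝ^k`, then it holds for the pair `K₁ × K₂`, `L₁ × L₂` in the Euclidean
product `ℝ^m × ℝ^k`. -/
theorem result (m k : ℕ)
    (K₁ L₁ : Set (EuclideanSpace ℝ (Fin m))) (K₂ L₂ : Set (EuclideanSpace ℝ (Fin k)))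
    (hK₁ : IsSymmConvexBody K₁) (hL₁ : IsSymmConvexBody L₁)
    (hK₂ : IsSymmConvexBody K₂) (hL₂ : IsSymmConvexBody L₂)
    (t : ℝ) (ht0 : 0 ≤ t) (ht1 : t ≤ 1)
    (h₁ : LogBMIneq K₁ L₁ t) (h₂ : LogBMIneq K₂ L₂ t) :
    IsSymmConvexBody (prodBody K₁ K₂) ∧ IsSymmConvexBody (prodBody L₁ L₂) ∧
      LogBMIneq (prodBody K₁ K₂) (prodBody L₁ L₂) t :=
  ⟨hK₁.prodBody hK₂, hL₁.prodBody hL₂, logBM_prod hK₁ hL₁ hK₂ hL₂ ht0 ht1 h₁ h₂⟩

end Vale.Agent.Results.P227.ProductClosure
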