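import Vale.Agent.Lib.P227.Proj
import Vale.Agent.Lib.P227.Product

namespace Vale.Agent.Results.P227.ScalingAndProducts

open MeasureTheory Vale.Agent.Lib.P227

/-- Two results on the logarithmic Brunn-Minkowski inequality in one statement.

(1) It holds for the pair `K`, `L = T K` in `ℝ^n`, where the coordinates are split into blocks
by `c : Fin n → Fin m`, the origin-symmetric convex body `K` contains the point obtained from
any of its points by replacing the coordinates of any set of blocks by zero, and `T` is the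
diagonal map multiplying the coordinates of block `j` by `a j > 0`.

(2) It is closed under Cartesian products: if it holds (at the parameter `t`) for the pair
`K₁, L₁` in `ℝ^m` and for the pair `K₂, L₂` in `ℝ^k`, then it holds for the pair `K₁ × K₂`,
`L₁ × L₂` in the Euclidean product `ℝ^m × ℝ^k`. -/
theorem result :
    (∀ (n m : ℕ) (c : Fin n → Fin m)
      (K : Set (EuclideanSpace ℝ (Fin n))), IsSymmConvexBody K →
      (∀ S : Finset (Fin m), ∀ x ∈ K,
        (WithLp.toLp 2 (fun i => if c i ∈ S then x i else 0) : EuclideanSpace ℝ (Fin n)) ∈ K) →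
      ∀ (a : Fin m → ℝ), (∀ j, 0 < a j) →
      ∀ (L : Set (EuclideanSpace ℝ (Fin n))),
        L = (fun x : EuclideanSpace ℝ (Fin n) =>
          (WithLp.toLp 2 (fun i => a (c i) * x i) : EuclideanSpace ℝ (Fin n))) '' K →
      ∀ (t : ℝ), 0 ≤ t → t ≤ 1 →
        volume K ^ (1 - t) * volume L ^ t ≤ volume (logSum K L t)) ∧
    (∀ (m k : ℕ)
      (K₁ L₁ : Set (EuclideanSpace ℝ (Fin m))) (K₂ L₂ : Set (EuclideanSpace ℝ (Fin k))),
      IsSymmConvexBody K₁ → IsSymmConvexBody L₁ →
      IsSymmConvexBody K₂ → IsSymmConvexBody L₂ →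
      ∀ (t : ℝ), 0 ≤ t → t ≤ 1 →
      LogBMIneq K₁ L₁ t → LogBMIneq K₂ L₂ t →
        IsSymmConvexBody (prodBody K₁ K₂) ∧ IsSymmConvexBody (prodBody L₁ L₂) ∧
          LogBMIneq (prodBody K₁ K₂) (prodBody L₁ L₂) t) := by
  refine ⟨?_, ?_⟩
  · intro n m c K hK hproj a ha L hL t ht0 ht1
    subst hL
    exact logBM_proj c hK hproj a ha ht0 ht1
  · intro m k K₁ L₁ K₂ L₂ hK₁ hL₁ hK₂ hL₂ t ht0 ht1 h₁ h₂
    exact ⟨hK₁.prodBody hK₂, hL₁.prodBody hL₂, logBM_prod hK₁ hL₁ hK₂ hL₂ ht0 ht1 h₁ h₂⟩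

end Vale.Agent.Results.P227.ScalingAndProducts
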